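import Mathlib
import Vale.Agent.P252.Defs
import Vale.Agent.P252.Main

/-!
The affine Bernstein property fails in every dimension `n ≥ 10`, already for smooth entire graphs.
-/

namespace Vale.Agent.Results.P252.SmoothEntire

open Vale.Agent.P252
open scoped ContDiff

theorem result (n : ℕ) (hn : 10 ≤ n) :
    (∃ u : E n → ℝ, ContDiff ℝ ∞ u ∧ (∀ x, (hess u x).PosDef) ∧ (∀ x, AffineMaximalAt u x) ∧
      EuclideanComplete Set.univ u ∧ ¬ IsQuadratic u) ∧
    ¬ EntireAffineBernstein n ∧ ¬ AffineBernstein n :=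
  Vale.Agent.P252.main n hn

end Vale.Agent.Results.P252.SmoothEntire
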